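import Vale.Agent.Lib.P125.MtFinal

open Finset BigOperators

universe u v

/-- The summing operators `S : ℓ₁ → ℓ_∞` have Markov type `p` for every `p < 8 / 7`, with a constant
depending only on `p`: for a finite stationary reversible chain `(π, P)`, a finite linear order `ι`,
every `f : V → ℝ^ι` and every `t ≥ 1`, with `(S x)(y) = ∑ z ≤ y, x z`,
`E ‖S (f (Z_t) - f (Z_0))‖_∞ ^ p ≤ K t E ‖f (Z_1) - f (Z_0)‖_1 ^ p`. -/
theorem Vale.Agent.Results.P125.MarkovTypeSumming.result (p : ℝ) (hp1 : 1 ≤ p) (hp87 : p < 8 / 7) :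
    ∃ K : ℝ, 0 < K ∧ ∀ {V : Type u} {ι : Type v} [Fintype V] [DecidableEq V] [Fintype ι]
      [LinearOrder ι] (π : V → ℝ) (P : Matrix V V ℝ),
      (∀ x, 0 ≤ π x) → (∑ x, π x = 1) → (∀ x y, 0 ≤ P x y) → (∀ x, ∑ y, P x y = 1) →
      (∀ x y, π x * P x y = π y * P y x) → ∀ (f : V → ι → ℝ) (t : ℕ), 1 ≤ t →
        ∑ x, ∑ w, π x * (P ^ t) x w * (⨆ y : ι, |∑ z with z ≤ y, (f w z - f x z)|) ^ p
          ≤ K * t * ∑ u, ∑ v, π u * P u v * (∑ z, |f u z - f v z|) ^ p := by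
  obtain ⟨K, hK0, hK⟩ := Vale.Agent.Lib.P125.markov_type_sum.{u, v} hp1 hp87
  refine ⟨K, hK0, ?_⟩
  intro V ι _ _ _ _ π P hπ hπ1 hP hS hR f t ht
  have hc : Vale.Agent.Lib.P125.Rev π (fun a b => P a b) := ⟨hπ, hP, hS, hR⟩
  have h := hK hc hπ1 f t ht
  refine le_trans (le_of_eq ?_) h
  refine Finset.sum_congr rfl (fun x _ => ?_)
  rw [Vale.Agent.Lib.P125.pw_eq_matrix, Finset.mul_sum]
  exact Finset.sum_congr rfl (fun w _ => by
    unfold Vale.Agent.Lib.P125.cc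
    ring)
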