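import Vale.Agent.Lib.P125.TwoPointBridge

open Finset BigOperators

/-- Two point inequalities for the summing operators, uniformly in their size.
For a finite stationary reversible chain `(π, P)`, a finite linear order `ι`, every `f : V → ℝ^ι`
and every `t ≥ 1`, with `(S x)(y) = ∑ z ≤ y, x z`:
`E ‖S (f (Z_t) - f (Z_0))‖_∞ ^ 2 ≤ 52 t^(7/4) E ‖f (Z_1) - f (Z_0)‖_1 ^ 2`,
and if `f` is `1`-Lipschitz along the edges of the chain then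
`E ‖S (f (Z_t) - f (Z_0))‖_∞ ^ 3 ≤ 2781 t^(5/2)` and `E ‖S (f (Z_t) - f (Z_0))‖_∞ ≤ 15 t^(5/6)`. -/
theorem Vale.Agent.Results.P125.TwoPointSumming.result
    {V ι : Type*} [Fintype V] [DecidableEq V] [Fintype ι] [LinearOrder ι]
    (π : V → ℝ) (P : Matrix V V ℝ)
    (hπ : ∀ x, 0 ≤ π x) (hπ1 : ∑ x, π x = 1) (hP : ∀ x y, 0 ≤ P x y) (hS : ∀ x, ∑ y, P x y = 1)
    (hR : ∀ x y, π x * P x y = π y * P y x)
    (f : V → ι → ℝ) (t : ℕ) (ht : 1 ≤ t) :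
    (∑ x, ∑ w, π x * (P ^ t) x w * (⨆ y : ι, |∑ z with z ≤ y, (f w z - f x z)|) ^ 2
        ≤ 52 * (t : ℝ) ^ (7 / 4 : ℝ) * ∑ u, ∑ v, π u * P u v * (∑ z, |f u z - f v z|) ^ 2) ∧
    ((∀ u v, P u v ≠ 0 → ∑ z, |f u z - f v z| ≤ 1) →
      (∑ x, ∑ w, π x * (P ^ t) x w * (⨆ y : ι, |∑ z with z ≤ y, (f w z - f x z)|) ^ 3
          ≤ 2781 * (t : ℝ) ^ (5 / 2 : ℝ)) ∧
      (∑ x, ∑ w, π x * (P ^ t) x w * (⨆ y : ι, |∑ z with z ≤ y, (f w z - f x z)|)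
          ≤ 15 * (t : ℝ) ^ (5 / 6 : ℝ))) :=
  Vale.Agent.Lib.P125.two_point_summing π P hπ hπ1 hP hS hR f t ht
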