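import Vale.Agent.Results.P125.MarkovTypeGap
import Vale.Agent.Results.P125.MarkovTypeSumming
import Vale.Agent.Results.P125.TwoPointSumming
import Vale.Agent.Lib.P125.IP2Interp6

open Finset BigOperators

universe u v w

/-- The four results on Markov type and non-superreflexive spaces together: the one-time criterion
for nontrivial Markov type of a space; Markov type `p < 8 / 7` of the summing operators uniformly in
their size; the mean inequality in the non-superreflexive norms `xn m`; and the two-point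
inequalities for the summing operators. -/
theorem Vale.Agent.Results.P125.A0Conj.result :
    (∀ (X : Type w) [NormedAddCommGroup X] [NormedSpace ℝ X],
      List.TFAE [
        ∃ p K : ℝ, 1 < p ∧ p ≤ 2 ∧
          ∀ (V : Type) [Fintype V] [DecidableEq V] (π : V → ℝ) (P : Matrix V V ℝ),
            (∀ x, 0 ≤ π x) → ∑ x, π x = 1 → (∀ x y, 0 ≤ P x y) → (∀ x, ∑ y, P x y = 1) →
            (∀ x y, π x * P x y = π y * P y x) → ∀ (f : V → X) (t : ℕ), 1 ≤ t →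
              ∑ x, ∑ w, π x * (P ^ t) x w * ‖f w - f x‖ ^ p ≤
                K * t * ∑ u, ∑ v, π u * P u v * ‖f v - f u‖ ^ p,
        ∃ (t₀ : ℕ) (c : ℝ), 2 ≤ t₀ ∧ c < (t₀ : ℝ) ^ 2 ∧
          ∀ (V : Type) [Fintype V] [DecidableEq V] (π : V → ℝ) (P : Matrix V V ℝ),
            (∀ x, 0 ≤ π x) → ∑ x, π x = 1 → (∀ x y, 0 ≤ P x y) → (∀ x, ∑ y, P x y = 1) →
            (∀ x y, π x * P x y = π y * P y x) → ∀ f : V → X,
              ∑ x, ∑ w, π x * (P ^ t₀) x w * ‖f w - f x‖ ^ 2 ≤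
                c * ∑ u, ∑ v, π u * P u v * ‖f v - f u‖ ^ 2,
        ∃ α C : ℝ, α < 2 ∧
          ∀ (V : Type) [Fintype V] [DecidableEq V] (π : V → ℝ) (P : Matrix V V ℝ),
            (∀ x, 0 ≤ π x) → ∑ x, π x = 1 → (∀ x y, 0 ≤ P x y) → (∀ x, ∑ y, P x y = 1) →
            (∀ x y, π x * P x y = π y * P y x) → ∀ (f : V → X) (t : ℕ), 1 ≤ t →
              ∑ x, ∑ w, π x * (P ^ t) x w * ‖f w - f x‖ ^ 2 ≤
                C * (t : ℝ) ^ α * ∑ u, ∑ v, π u * P u v * ‖f v - f u‖ ^ 2] ∧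
      ∀ (t₀ : ℕ) (c p : ℝ), 2 ≤ t₀ → 1 < c → c < (t₀ : ℝ) ^ 2 → 1 ≤ p → p < 2 → c ^ (p / 2) < t₀ →
        (∀ (V : Type) [Fintype V] [DecidableEq V] (π : V → ℝ) (P : Matrix V V ℝ),
          (∀ x, 0 ≤ π x) → ∑ x, π x = 1 → (∀ x y, 0 ≤ P x y) → (∀ x, ∑ y, P x y = 1) →
          (∀ x y, π x * P x y = π y * P y x) → ∀ f : V → X,
            ∑ x, ∑ w, π x * (P ^ t₀) x w * ‖f w - f x‖ ^ 2 ≤
              c * ∑ u, ∑ v, π u * P u v * ‖f v - f u‖ ^ 2) →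
        ∃ K : ℝ, 0 < K ∧
          ∀ (V : Type) [Fintype V] [DecidableEq V] (π : V → ℝ) (P : Matrix V V ℝ),
            (∀ x, 0 ≤ π x) → ∑ x, π x = 1 → (∀ x y, 0 ≤ P x y) → (∀ x, ∑ y, P x y = 1) →
            (∀ x y, π x * P x y = π y * P y x) → ∀ (f : V → X) (t : ℕ), 1 ≤ t →
              ∑ x, ∑ w, π x * (P ^ t) x w * ‖f w - f x‖ ^ p ≤
                K * t * ∑ u, ∑ v, π u * P u v * ‖f v - f u‖ ^ p) ∧
    (∀ (p : ℝ) (_ : 1 ≤ p) (_ : p < 8 / 7),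
      ∃ K : ℝ, 0 < K ∧ ∀ {V : Type u} {ι : Type v} [Fintype V] [DecidableEq V] [Fintype ι]
        [LinearOrder ι] (π : V → ℝ) (P : Matrix V V ℝ),
        (∀ x, 0 ≤ π x) → (∑ x, π x = 1) → (∀ x y, 0 ≤ P x y) → (∀ x, ∑ y, P x y = 1) →
        (∀ x y, π x * P x y = π y * P y x) → ∀ (f : V → ι → ℝ) (t : ℕ), 1 ≤ t →
          ∑ x, ∑ w, π x * (P ^ t) x w * (⨆ y : ι, |∑ z with z ≤ y, (f w z - f x z)|) ^ p
            ≤ K * t * ∑ u, ∑ v, π u * P u v * (∑ z, |f u z - f v z|) ^ p) ∧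
    (∀ {V : Type u} [Fintype V] [DecidableEq V]
    (π : V → ℝ) (P : Matrix V V ℝ)
    (_ : ∀ x, 0 ≤ π x) (_ : ∀ x y, 0 ≤ P x y) (_ : ∀ x, ∑ y, P x y = 1)
    (_ : ∀ x y, π x * P x y = π y * P y x)
    (m : ℕ) (f : V → ℕ → ℝ) (t : ℕ),
      (∀ a b : ℕ → ℝ, Vale.Agent.Lib.P125.IP2.xn m (fun x => a x + b x) ≤
      Vale.Agent.Lib.P125.IP2.xn m a + Vale.Agent.Lib.P125.IP2.xn m b) ∧
    (∀ (c : ℝ) (a : ℕ → ℝ), Vale.Agent.Lib.P125.IP2.xn m (fun x => c * a x) =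
      |c| * Vale.Agent.Lib.P125.IP2.xn m a) ∧
    (∀ a : ℕ → ℝ, Vale.Agent.Lib.P125.IP2.xn m a = 0 → ∀ x < m, a x = 0) ∧
    (∀ (a : ℕ → ℝ) (j : ℕ), j ≤ m → |∑ x ∈ range j, a x| ≤ 2 * Vale.Agent.Lib.P125.IP2.xn m a) ∧
    (∀ a : ℕ → ℝ, Vale.Agent.Lib.P125.IP2.xn m a ≤ 4 * ∑ x ∈ range m, |a x|) ∧
    ∑ x, π x * Vale.Agent.Lib.P125.IP2.xn m (fun z => f x z - ∑ w, (P ^ t) x w * f w z) ^ 2 ≤
      47088 * (t * √(t : ℝ)) *
        ∑ u, ∑ v, π u * P u v * Vale.Agent.Lib.P125.IP2.xn m (fun z => f u z - f v z) ^ 2) ∧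
    (∀ {V : Type u} {ι : Type v} [Fintype V] [DecidableEq V] [Fintype ι] [LinearOrder ι]
    (π : V → ℝ) (P : Matrix V V ℝ)
    (_ : ∀ x, 0 ≤ π x) (_ : ∑ x, π x = 1) (_ : ∀ x y, 0 ≤ P x y) (_ : ∀ x, ∑ y, P x y = 1)
    (_ : ∀ x y, π x * P x y = π y * P y x)
    (f : V → ι → ℝ) (t : ℕ) (_ : 1 ≤ t),
      (∑ x, ∑ w, π x * (P ^ t) x w * (⨆ y : ι, |∑ z with z ≤ y, (f w z - f x z)|) ^ 2
        ≤ 52 * (t : ℝ) ^ (7 / 4 : ℝ) * ∑ u, ∑ v, π u * P u v * (∑ z, |f u z - f v z|) ^ 2) ∧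
    ((∀ u v, P u v ≠ 0 → ∑ z, |f u z - f v z| ≤ 1) →
      (∑ x, ∑ w, π x * (P ^ t) x w * (⨆ y : ι, |∑ z with z ≤ y, (f w z - f x z)|) ^ 3
          ≤ 2781 * (t : ℝ) ^ (5 / 2 : ℝ)) ∧
      (∑ x, ∑ w, π x * (P ^ t) x w * (⨆ y : ι, |∑ z with z ≤ y, (f w z - f x z)|)
          ≤ 15 * (t : ℝ) ^ (5 / 6 : ℝ)))) := by
  refine ⟨?_, ?_, ?_, ?_⟩
  · intro X _ _
    exact Vale.Agent.Results.P125.MarkovTypeGap.result X
  · intro p h1 h2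
    exact Vale.Agent.Results.P125.MarkovTypeSumming.result p h1 h2
  · intro V _ _ π P h1 h2 h3 h4 m f t
    refine ⟨Vale.Agent.Lib.P125.IP2.xn_add_le m, Vale.Agent.Lib.P125.IP2.xn_smul m,
      fun a h x hx => Vale.Agent.Lib.P125.IP2.eq_zero_of_xn_eq_zero h hx,
      fun a j hj => Vale.Agent.Lib.P125.IP2.abs_sum_le_xn m j hj a,
      Vale.Agent.Lib.P125.IP2.xn_le_l1 m, ?_⟩
    have hc : Vale.Agent.Lib.P125.Rev π (fun a b => P a b) := ⟨h1, h2, h3, h4⟩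
    have h := Vale.Agent.Lib.P125.IP2.mean_interp hc t m f
    simp only [Vale.Agent.Lib.P125.pw_eq_matrix] at h
    exact h
  · intro V ι _ _ _ _ π P h1 h2 h3 h4 h5 f t ht
    exact Vale.Agent.Results.P125.TwoPointSumming.result π P h1 h2 h3 h4 h5 f t ht
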