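import Vale.Agent.Lib.P125.MgFinal

open Finset BigOperators

universe v

/-- For a real normed space `X` the following are equivalent: nontrivial Markov type; the quadratic
inequality `E ‖f(Z_t₀) - f(Z_0)‖² ≤ c E ‖f(Z_1) - f(Z_0)‖²` with `c < t₀²` at one single time
`t₀ ≥ 2` (the triangle inequality gives `c = t₀²` for every space); the quadratic inequality at all
times with constant `C t^α`, `α < 2`. Quantitatively, the inequality at one time `t₀` with constant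
`1 < c < t₀²` gives Markov type `p` for all `1 ≤ p < 2` with `c ^ (p / 2) < t₀`. -/
theorem Vale.Agent.Results.P125.MarkovTypeGap.result (X : Type v) [NormedAddCommGroup X]
    [NormedSpace ℝ X] :
    List.TFAE [
      ∃ p K : ℝ, 1 < p ∧ p ≤ 2 ∧
        ∀ (V : Type) [Fintype V] [DecidableEq V] (π : V → ℝ) (P : Matrix V V ℝ),
          (∀ x, 0 ≤ π x) → ∑ x, π x = 1 → (∀ x y, 0 ≤ P x y) → (∀ x, ∑ y, P x y = 1) →
          (∀ x y, π x * P x y = π y * P y x) → ∀ (f : V → X) (t : ℕ), 1 ≤ t →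
            ∑ x, ∑ w, π x * (P ^ t) x w * ‖f w - f x‖ ^ p ≤
              K * t * ∑ u, ∑ v, π u * P u v * ‖f v - f u‖ ^ p,
      ∃ (t₀ : ℕ) (c : ℝ), 2 ≤ t₀ ∧ c < (t₀ : ℝ) ^ 2 ∧
        ∀ (V : Type) [Fintype V] [DecidableEq V] (π : V → ℝ) (P : Matrix V V ℝ),
          (∀ x, 0 ≤ π x) → ∑ x, π x = 1 → (∀ x y, 0 ≤ P x y) → (∀ x, ∑ y, P x y = 1) →
          (∀ x y, π x * P x y = π y * P y x) → ∀ f : V → X,
            ∑ x, ∑ w, π x * (P ^ t₀) x w * ‖f w - f x‖ ^ 2 ≤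
              c * ∑ u, ∑ v, π u * P u v * ‖f v - f u‖ ^ 2,
      ∃ α C : ℝ, α < 2 ∧
        ∀ (V : Type) [Fintype V] [DecidableEq V] (π : V → ℝ) (P : Matrix V V ℝ),
          (∀ x, 0 ≤ π x) → ∑ x, π x = 1 → (∀ x y, 0 ≤ P x y) → (∀ x, ∑ y, P x y = 1) →
          (∀ x y, π x * P x y = π y * P y x) → ∀ (f : V → X) (t : ℕ), 1 ≤ t →
            ∑ x, ∑ w, π x * (P ^ t) x w * ‖f w - f x‖ ^ 2 ≤
              C * (t : ℝ) ^ α * ∑ u, ∑ v, π u * P u v * ‖f v - f u‖ ^ 2] ∧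
    ∀ (t₀ : ℕ) (c p : ℝ), 2 ≤ t₀ → 1 < c → c < (t₀ : ℝ) ^ 2 → 1 ≤ p → p < 2 → c ^ (p / 2) < t₀ →
      (∀ (V : Type) [Fintype V] [DecidableEq V] (π : V → ℝ) (P : Matrix V V ℝ),
        (∀ x, 0 ≤ π x) → ∑ x, π x = 1 → (∀ x y, 0 ≤ P x y) → (∀ x, ∑ y, P x y = 1) →
        (∀ x y, π x * P x y = π y * P y x) → ∀ f : V → X,
          ∑ x, ∑ w, π x * (P ^ t₀) x w * ‖f w - f x‖ ^ 2 ≤
            c * ∑ u, ∑ v, π u * P u v * ‖f v - f u‖ ^ 2) →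
      ∃ K : ℝ, 0 < K ∧
        ∀ (V : Type) [Fintype V] [DecidableEq V] (π : V → ℝ) (P : Matrix V V ℝ),
          (∀ x, 0 ≤ π x) → ∑ x, π x = 1 → (∀ x y, 0 ≤ P x y) → (∀ x, ∑ y, P x y = 1) →
          (∀ x y, π x * P x y = π y * P y x) → ∀ (f : V → X) (t : ℕ), 1 ≤ t →
            ∑ x, ∑ w, π x * (P ^ t) x w * ‖f w - f x‖ ^ p ≤
              K * t * ∑ u, ∑ v, π u * P u v * ‖f v - f u‖ ^ p := by
  constructor
  · tfae_have 1 → 3 := by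
      rintro ⟨p, K, hp1, hp2, h⟩
      obtain ⟨α, C, hα, hT⟩ := Vale.Agent.Lib.P125.tp_of_typem (X := X) hp1 hp2 h
      exact ⟨α, C, hα, hT⟩
    tfae_have 3 → 2 := by
      rintro ⟨α, C, hα, h⟩
      obtain ⟨t₀, c, h1, h2, h3⟩ := Vale.Agent.Lib.P125.gp_of_tpm (X := X) hα h
      exact ⟨t₀, c, h1, h2, h3⟩
    tfae_have 2 → 1 := by
      rintro ⟨t₀, c, h1, h2, h3⟩
      obtain ⟨p, K, hp1, hp2, h⟩ := Vale.Agent.Lib.P125.typem_of_gpm (X := X) h1 h2 h3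
      exact ⟨p, K, hp1, hp2, h⟩
    tfae_finish
  · intro t₀ c p h1 h2 h3 h4 h5 h6 h7
    exact Vale.Agent.Lib.P125.type_of_gapm (X := X) h1 h2 h3 h4 h5 h6 h7
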