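import Vale.Agent.Lib.P125.Interp6

open Finset BigOperators

/-- Mean Markov inequality in a non-superreflexive family of norms.  For every `m`, the function
`xn m` (the support function of the test sequences `IsTest m`: finite sums of pieces `U k` with
`|U k| ≤ 2^(-k)` and `∑ 2^(-k) tv (U k) ≤ 1`) is a norm on the first `m` coordinates, it lies
between half the summing norm and four times the `ℓ¹` norm, and for every finite stationary
reversible chain `(π, P)`, every `f : V → ℝ^m` and every `t`,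
`E ‖f - P^t f‖² ≤ 47088 t^(3/2) E ‖f (Z₁) - f (Z₀)‖²`, with the constant independent of `m`, `V`. -/
theorem Vale.Agent.Results.P125.MeanInterpNorm.result
    {V : Type*} [Fintype V] [DecidableEq V]
    (π : V → ℝ) (P : Matrix V V ℝ)
    (hπ : ∀ x, 0 ≤ π x) (hP : ∀ x y, 0 ≤ P x y) (hS : ∀ x, ∑ y, P x y = 1)
    (hR : ∀ x y, π x * P x y = π y * P y x)
    (m : ℕ) (f : V → ℕ → ℝ) (t : ℕ) :
    (∀ a b : ℕ → ℝ, Vale.Agent.Lib.P125.xn m (fun x => a x + b x) ≤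
      Vale.Agent.Lib.P125.xn m a + Vale.Agent.Lib.P125.xn m b) ∧
    (∀ (c : ℝ) (a : ℕ → ℝ), Vale.Agent.Lib.P125.xn m (fun x => c * a x) =
      |c| * Vale.Agent.Lib.P125.xn m a) ∧
    (∀ a : ℕ → ℝ, Vale.Agent.Lib.P125.xn m a = 0 → ∀ x < m, a x = 0) ∧
    (∀ (a : ℕ → ℝ) (j : ℕ), j ≤ m → |∑ x ∈ range j, a x| ≤ 2 * Vale.Agent.Lib.P125.xn m a) ∧
    (∀ a : ℕ → ℝ, Vale.Agent.Lib.P125.xn m a ≤ 4 * ∑ x ∈ range m, |a x|) ∧
    ∑ x, π x * Vale.Agent.Lib.P125.xn m (fun z => f x z - ∑ w, (P ^ t) x w * f w z) ^ 2 ≤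
      47088 * (t * √(t : ℝ)) *
        ∑ u, ∑ v, π u * P u v * Vale.Agent.Lib.P125.xn m (fun z => f u z - f v z) ^ 2 := by
  refine ⟨Vale.Agent.Lib.P125.xn_add_le m, Vale.Agent.Lib.P125.xn_smul m,
    fun a h x hx => Vale.Agent.Lib.P125.eq_zero_of_xn_eq_zero h hx,
    fun a j hj => Vale.Agent.Lib.P125.abs_sum_le_xn m j hj a,
    Vale.Agent.Lib.P125.xn_le_l1 m, ?_⟩
  have hc : Vale.Agent.Lib.P125.Rev π (fun a b => P a b) := ⟨hπ, hP, hS, hR⟩
  have h := Vale.Agent.Lib.P125.mean_interp hc t m f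
  simp only [Vale.Agent.Lib.P125.pw_eq_matrix] at h
  exact h
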